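import Vale.Agent.P210.R2.H168.McpAbs

/-! Measure contraction and volume comparison (rows MCP and BG of Theorem R). -/

open scoped Manifold ContDiff Topology Bundle ENNReal NNReal
open Set Metric Filter Bundle IsManifold MeasureTheory Manifold Asymptotics

set_option maxSynthPendingDepth 3

noncomputable section

namespace Vale.Agent.P210.R2.H168

open Vale.Agent.P210.R2.H53

theorem calc_of (hA : Stmt.CALA) (hB : Stmt.CALB) (E : Type) [NormedAddCommGroup E]
    [NormedSpace ℝ E] [FiniteDimensional ℝ E] [MeasurableSpace E] [BorelSpace E]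
    (M : Type) [MetricSpace M] [ChartedSpace E M]
    [RiemannianBundle (fun x : M => TangentSpace 𝓘(ℝ, E) x)]
    [IsManifold 𝓘(ℝ, E) ∞ M]
    [IsContMDiffRiemannianBundle 𝓘(ℝ, E) ∞ E (fun x : M => TangentSpace 𝓘(ℝ, E) x)]
    [IsRiemannianManifold 𝓘(ℝ, E) M] [MeasurableSpace M] [BorelSpace M] [ProperSpace M]
    (h1 : 1 ≤ Module.finrank ℝ E) (μ : Measure M) (hμ : IsVol E μ) :
    Calc μ (Gam E) (fun u p => MDifferentiableAt 𝓘(ℝ, E) 𝓘(ℝ, ℝ) u p) := by
  obtain ⟨a1, -, a3, a4, -⟩ := hA E M h1 μ hμ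
  obtain ⟨-, b2, -, b4, b5, b6, -, -, b9, b10, b11⟩ := hB E M h1
  exact
    { fin := a1
      rad := a3
      meas := a4
      symm := b2
      cs := b4
      congr := b5
      add := fun u v w p hu hv => (b6 u v w p hu hv).1
      mul := fun u v w p hu hv => (b6 u v w p hu hv).2
      chain := b9
      lip := b10
      one := b11 }

/-- row MCP -/
theorem mcp : Stmt.WLC → Stmt.CALA → Stmt.CALB → Stmt.MCP := by
  intro hW hA hB n hn E _ _ _ _ _ M _ _ _ _ _ _ _ _ _ h1 hE μ K hμ hK hRic x R lam A hR hl hl1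
    hAc hAR
  have hC := calc_of hA hB E M h1 μ hμ
  have hWx := hW E M h1 μ K hμ hK hRic x
  rw [hE] at hWx
  exact mcp_abs hC x hK.le (fun ζ hζ h0 => hWx ζ hζ h0) hAc hl hl1 hR hAR

/-- row BG -/
theorem bg : Stmt.MCP → Stmt.CALA → Stmt.BG := by
  intro hM hA n hn E _ _ _ _ _ M _ _ _ _ _ _ _ _ _ h1 hE μ K hμ hK hRic x s t hs hst
  obtain ⟨a1, -⟩ := hA E M h1 μ hμ
  have ht : 0 < t := hs.trans_le hst
  have hmcp := hM n hn E M h1 hE μ K hμ hK hRic
  have hfin : ∀ ρ : ℝ, μ (ball x ρ) ≠ ⊤ := fun ρ =>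
    ((measure_mono ball_subset_closedBall).trans_lt (a1 _ (isCompact_closedBall x ρ))).ne
  set C : ℝ := (t / s) ^ n * Real.exp (K * t ^ 2) with hC
  have hC0 : 0 ≤ C := by positivity
  have key : ∀ t' : ℝ, 0 < t' → t' < t → μ.real (closedBall x t') ≤ C * μ.real (ball x s) := by
    intro t' ht' htt
    have h := hmcp x t' (s / t) (closedBall x t') ht' (by positivity) ((div_le_one ht).2 hst)
      (isCompact_closedBall x t') Subset.rfl
    refine h.trans ?_
    have h2 : {w | ∃ z ∈ closedBall x t', dist x w = s / t * dist x z ∧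
        dist w z = (1 - s / t) * dist x z} ⊆ ball x s := by
      rintro w ⟨z, hz, hw, -⟩
      rw [mem_closedBall, dist_comm] at hz
      rw [mem_ball, dist_comm, hw, div_mul_eq_mul_div, div_lt_iff₀ ht]
      have : dist x z < t := hz.trans_lt htt
      gcongr
    have h3 := measureReal_mono h2 (hfin s)
    have h4 : (s / t)⁻¹ ^ n * Real.exp (K * t' ^ 2) ≤ C := by
      rw [hC, inv_div]
      gcongr
    calc _ ≤ (s / t)⁻¹ ^ n * Real.exp (K * t' ^ 2) * μ.real (ball x s) := by gcongr
      _ ≤ _ := by gcongr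
  -- exhaustion of the open ball
  have hmono : Monotone fun k : ℕ => ball x (t * (1 - 1 / ((k : ℝ) + 2))) := by
    intro k l hkl
    apply ball_subset_ball
    have : (k : ℝ) ≤ l := by exact_mod_cast hkl
    gcongr
  have hU : ⋃ k : ℕ, ball x (t * (1 - 1 / ((k : ℝ) + 2))) = ball x t := by
    apply Subset.antisymm
    · refine iUnion_subset fun k => ball_subset_ball ?_
      have : 0 ≤ 1 / ((k : ℝ) + 2) := by positivity
      nlinarith
    · intro p hp
      rw [mem_ball] at hp
      rw [mem_iUnion]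
      have h5 : 0 < 1 - dist p x / t := by
        rw [sub_pos, div_lt_one ht]; exact hp
      obtain ⟨k, hk⟩ := exists_nat_gt (1 / (1 - dist p x / t))
      refine ⟨k, ?_⟩
      rw [mem_ball]
      have h6 : 1 / ((k : ℝ) + 2) < 1 - dist p x / t := by
        rw [div_lt_iff₀ (by positivity)]
        rw [div_lt_iff₀ h5] at hk
        nlinarith
      have h7 : dist p x / t < 1 - 1 / ((k : ℝ) + 2) := by linarith
      rw [div_lt_iff₀ ht] at h7
      linarith
  have hlim := tendsto_measure_iUnion_atTop (μ := μ) hmono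
  rw [hU] at hlim
  have hlim2 : Tendsto (fun k : ℕ => μ.real (ball x (t * (1 - 1 / ((k : ℝ) + 2))))) atTop
      (𝓝 (μ.real (ball x t))) := (ENNReal.tendsto_toReal (hfin t)).comp hlim
  refine le_of_tendsto' hlim2 fun k => ?_
  have h8 : 1 / ((k : ℝ) + 2) < 1 := by
    rw [div_lt_one (by positivity)]
    have : (0 : ℝ) ≤ k := Nat.cast_nonneg k
    linarith
  have h9 : 0 < 1 / ((k : ℝ) + 2) := by positivity
  have h10 : 0 < t * (1 - 1 / ((k : ℝ) + 2)) := mul_pos ht (by linarith)
  have h11 : t * (1 - 1 / ((k : ℝ) + 2)) < t := by nlinarith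
  exact (measureReal_mono ball_subset_closedBall
    (a1 _ (isCompact_closedBall _ _)).ne).trans (key _ h10 h11)

end Vale.Agent.P210.R2.H168
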