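import Vale.Agent.P210.MathlibUsed

/-! A `C¹` step function and the partition of unity made of its translates. -/

open Set Metric Filter Topology
open scoped NNReal

noncomputable section

namespace Vale.Agent.P210.R2.H168

/-- square of the positive part -/
def pp (t : ℝ) : ℝ := (max t 0) ^ 2

lemma pp_of_nonpos {t : ℝ} (h : t ≤ 0) : pp t = 0 := by simp [pp, max_eq_right h]

lemma pp_of_nonneg {t : ℝ} (h : 0 ≤ t) : pp t = t ^ 2 := by simp [pp, max_eq_left h]

lemma hasDerivAt_pp (t : ℝ) : HasDerivAt pp (2 * max t 0) t := by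
  rcases lt_trichotomy t 0 with h | h | h
  · rw [max_eq_right h.le, mul_zero]
    refine (hasDerivAt_const t (0 : ℝ)).congr_of_eventuallyEq ?_
    filter_upwards [Iio_mem_nhds h] with y hy
    exact pp_of_nonpos (le_of_lt hy)
  · subst h
    rw [max_self, mul_zero, hasDerivAt_iff_isLittleO_nhds_zero]
    refine (Asymptotics.isBigO_iff.2 ⟨1, ?_⟩ : _ =O[𝓝 (0 : ℝ)] fun h : ℝ => h ^ 2).trans_isLittleO ?_
    · filter_upwards with y
      simp only [zero_add, smul_eq_mul, mul_zero, sub_zero, one_mul, Real.norm_eq_abs]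
      rw [show pp (0 : ℝ) = 0 from pp_of_nonpos le_rfl, sub_zero]
      rcases le_total y 0 with hy | hy
      · rw [pp_of_nonpos hy]; simp [sq_nonneg]
      · rw [pp_of_nonneg hy]
    · have := Asymptotics.isLittleO_pow_id (𝕜 := ℝ) (n := 2) (by norm_num)
      simpa using this
  · rw [max_eq_left h.le]
    refine ((hasDerivAt_pow 2 t).congr_of_eventuallyEq ?_).congr_deriv (by simp)
    filter_upwards [Ioi_mem_nhds h] with y hy
    exact pp_of_nonneg (le_of_lt hy)

/-- the step function -/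
def S (t : ℝ) : ℝ := 2 * pp t - 4 * pp (t - 1 / 2) + 2 * pp (t - 1)

/-- its derivative -/
def S' (t : ℝ) : ℝ := 4 * max t 0 - 8 * max (t - 1 / 2) 0 + 4 * max (t - 1) 0

lemma hasDerivAt_S (t : ℝ) : HasDerivAt S (S' t) t := by
  have h1 := (hasDerivAt_pp t).const_mul 2
  have h2 := ((hasDerivAt_pp (t - 1 / 2)).comp t ((hasDerivAt_id t).sub_const (1 / 2))).const_mul 4
  have h3 := ((hasDerivAt_pp (t - 1)).comp t ((hasDerivAt_id t).sub_const 1)).const_mul 2
  refine ((h1.sub h2).add h3).congr_deriv ?_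
  simp only [S']; ring

lemma S'_cases (t : ℝ) : (t ≤ 0 ∧ S' t = 0) ∨ (0 ≤ t ∧ t ≤ 1 / 2 ∧ S' t = 4 * t) ∨
    (1 / 2 ≤ t ∧ t ≤ 1 ∧ S' t = 4 * (1 - t)) ∨ (1 ≤ t ∧ S' t = 0) := by
  unfold S'
  rcases le_total t 0 with h0 | h0
  · left
    rw [max_eq_right h0, max_eq_right (by linarith), max_eq_right (by linarith)]
    exact ⟨h0, by ring⟩
  · rcases le_total t (1 / 2) with h1 | h1
    · right; left
      rw [max_eq_left h0, max_eq_right (by linarith), max_eq_right (by linarith)]
      exact ⟨h0, h1, by ring⟩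
    · rcases le_total t 1 with h2 | h2
      · right; right; left
        rw [max_eq_left h0, max_eq_left (by linarith), max_eq_right (by linarith)]
        exact ⟨h1, h2, by ring⟩
      · right; right; right
        rw [max_eq_left h0, max_eq_left (by linarith), max_eq_left (by linarith)]
        exact ⟨h2, by ring⟩

lemma S'_nonneg (t : ℝ) : 0 ≤ S' t := by
  rcases S'_cases t with ⟨_, h⟩ | ⟨_, h', h⟩ | ⟨h', _, h⟩ | ⟨_, h⟩ <;> rw [h] <;> linarith

lemma S'_le (t : ℝ) : S' t ≤ 2 := by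
  rcases S'_cases t with ⟨_, h⟩ | ⟨_, h', h⟩ | ⟨h', _, h⟩ | ⟨_, h⟩ <;> rw [h] <;> linarith

lemma S'_of_nonpos {t : ℝ} (h : t ≤ 0) : S' t = 0 := by
  unfold S'
  rw [max_eq_right h, max_eq_right (by linarith), max_eq_right (by linarith)]; ring

lemma S'_of_one_le {t : ℝ} (h : 1 ≤ t) : S' t = 0 := by
  unfold S'
  rw [max_eq_left (by linarith), max_eq_left (by linarith), max_eq_left (by linarith)]; ring

lemma continuous_S' : Continuous S' := by unfold S'; fun_prop

lemma differentiable_S : Differentiable ℝ S := fun t => (hasDerivAt_S t).differentiableAt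

lemma deriv_S (t : ℝ) : deriv S t = S' t := (hasDerivAt_S t).deriv

lemma continuous_S : Continuous S := differentiable_S.continuous

lemma S_of_nonpos {t : ℝ} (h : t ≤ 0) : S t = 0 := by
  unfold S
  rw [pp_of_nonpos h, pp_of_nonpos (by linarith), pp_of_nonpos (by linarith)]; ring

lemma S_of_one_le {t : ℝ} (h : 1 ≤ t) : S t = 1 := by
  unfold S
  rw [pp_of_nonneg (by linarith), pp_of_nonneg (by linarith), pp_of_nonneg (by linarith)]; ring

lemma S_mono : Monotone S :=
  monotone_of_deriv_nonneg differentiable_S fun t => by rw [deriv_S]; exact S'_nonneg t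

lemma S_nonneg (t : ℝ) : 0 ≤ S t := by
  rcases le_total t 0 with h | h
  · rw [S_of_nonpos h]
  · have := S_mono h
    rwa [S_of_nonpos le_rfl] at this

lemma S_le_one (t : ℝ) : S t ≤ 1 := by
  rcases le_total t 1 with h | h
  · have := S_mono h
    rwa [S_of_one_le le_rfl] at this
  · rw [S_of_one_le h]

lemma S_lip : LipschitzWith 2 S :=
  lipschitzWith_of_nnnorm_deriv_le differentiable_S fun t => by
    rw [deriv_S, ← NNReal.coe_le_coe, coe_nnnorm, Real.norm_eq_abs, abs_of_nonneg (S'_nonneg t)]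
    exact S'_le t

/-- the hats -/
def hat (δ : ℝ) (i : ℕ) (t : ℝ) : ℝ := S (t / δ - i + 1) - S (t / δ - i)

/-- derivatives of the hats -/
def hat' (δ : ℝ) (i : ℕ) (t : ℝ) : ℝ := (S' (t / δ - i + 1) - S' (t / δ - i)) / δ

lemma hasDerivAt_hat (δ : ℝ) (i : ℕ) (t : ℝ) : HasDerivAt (hat δ i) (hat' δ i t) t := by
  have h0 : HasDerivAt (fun t : ℝ => t / δ - i) (1 / δ) t :=
    ((hasDerivAt_id t).div_const δ).sub_const _
  have h1 := (hasDerivAt_S (t / δ - i + 1)).comp t (h0.add_const 1)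
  have h2 := (hasDerivAt_S (t / δ - i)).comp t h0
  refine (h1.sub h2).congr_deriv ?_
  simp only [hat']; ring

lemma continuous_hat' (δ : ℝ) (i : ℕ) : Continuous (hat' δ i) := by
  unfold hat'
  have := continuous_S'
  fun_prop

lemma continuous_hat (δ : ℝ) (i : ℕ) : Continuous (hat δ i) :=
  (show Differentiable ℝ (hat δ i) from fun t => (hasDerivAt_hat δ i t).differentiableAt).continuous

lemma hat_nonneg (δ : ℝ) (i : ℕ) (t : ℝ) : 0 ≤ hat δ i t := by
  unfold hat
  have := S_mono (show t / δ - i ≤ t / δ - i + 1 by linarith)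
  linarith

lemma hat_le_one (δ : ℝ) (i : ℕ) (t : ℝ) : hat δ i t ≤ 1 := by
  unfold hat
  have := S_le_one (t / δ - i + 1)
  have := S_nonneg (t / δ - i)
  linarith

lemma abs_hat'_le {δ : ℝ} (hδ : 0 < δ) (i : ℕ) (t : ℝ) : |hat' δ i t| ≤ 2 / δ := by
  unfold hat'
  rw [abs_div, abs_of_pos hδ]
  gcongr
  rw [abs_le]
  constructor <;>
    linarith [S'_le (t / δ - i + 1), S'_le (t / δ - i), S'_nonneg (t / δ - i + 1),
      S'_nonneg (t / δ - i)]

lemma hat_support {δ : ℝ} (hδ : 0 < δ) (i : ℕ) {t : ℝ} (h : hat δ i t ≠ 0) : |t - i * δ| < δ := by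
  have h1 : 0 < t / δ - i + 1 := by
    by_contra hc
    push Not at hc
    apply h
    unfold hat
    rw [S_of_nonpos hc, S_of_nonpos (by linarith)]; ring
  have h2 : t / δ - i < 1 := by
    by_contra hc
    push Not at hc
    apply h
    unfold hat
    rw [S_of_one_le hc, S_of_one_le (by linarith)]; ring
  have e : t = t / δ * δ := by field_simp
  rw [abs_lt]
  constructor <;> nlinarith

lemma hat'_support {δ : ℝ} (hδ : 0 < δ) (i : ℕ) {t : ℝ} (h : hat' δ i t ≠ 0) :
    |t - i * δ| < δ := by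
  have h1 : 0 < t / δ - i + 1 := by
    by_contra hc
    push Not at hc
    apply h
    unfold hat'
    rw [S'_of_nonpos hc, S'_of_nonpos (by linarith)]; ring
  have h2 : t / δ - i < 1 := by
    by_contra hc
    push Not at hc
    apply h
    unfold hat'
    rw [S'_of_one_le hc, S'_of_one_le (by linarith)]; ring
  have e : t = t / δ * δ := by field_simp
  rw [abs_lt]
  constructor <;> nlinarith

lemma sum_hat (δ : ℝ) (N : ℕ) (t : ℝ) :
    ∑ i ∈ Finset.range N, hat δ i t = S (t / δ + 1) - S (t / δ - N + 1) := by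
  induction N with
  | zero => simp
  | succ N ih =>
    rw [Finset.sum_range_succ, ih]
    unfold hat
    push_cast
    rw [show t / δ - ((N : ℝ) + 1) + 1 = t / δ - N by ring]
    ring

lemma sum_hat_le (δ : ℝ) (N : ℕ) (t : ℝ) : ∑ i ∈ Finset.range N, hat δ i t ≤ 1 := by
  rw [sum_hat]
  linarith [S_le_one (t / δ + 1), S_nonneg (t / δ - N + 1)]

lemma sum_hat_eq {δ : ℝ} (hδ : 0 < δ) {N : ℕ} {t : ℝ} (h0 : 0 ≤ t) (h : t ≤ (N - 1) * δ) :
    ∑ i ∈ Finset.range N, hat δ i t = 1 := by
  rw [sum_hat, S_of_one_le (by linarith [div_nonneg h0 hδ.le]), S_of_nonpos, sub_zero]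
  have : t / δ ≤ N - 1 := by rwa [div_le_iff₀ hδ]
  linarith

lemma lipschitz_hat {δ : ℝ} (hδ : 0 < δ) (i : ℕ) :
    LipschitzWith (Real.toNNReal (2 / δ)) (hat δ i) :=
  lipschitzWith_of_nnnorm_deriv_le (fun t => (hasDerivAt_hat δ i t).differentiableAt) fun t => by
    rw [(hasDerivAt_hat δ i t).deriv, ← NNReal.coe_le_coe, coe_nnnorm, Real.norm_eq_abs,
      Real.coe_toNNReal _ (by positivity)]
    exact abs_hat'_le hδ i t

end Vale.Agent.P210.R2.H168
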