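import Vale.Agent.P210.R2.H53.RSpec
import Vale.Agent.P210.R2.H168.Spline

/-! Measure contraction from the weak Laplacian comparison, in an abstract calculus. -/

open Set Metric Filter Topology MeasureTheory
open scoped NNReal ENNReal

noncomputable section

namespace Vale.Agent.P210.R2.H168

open Vale.Agent.P210.R2.H53 (LC)

/-- the rules of calculus which are used -/
structure Calc {M : Type} [MetricSpace M] [MeasurableSpace M] (μ : Measure M)
    (Γ : (M → ℝ) → (M → ℝ) → M → ℝ) (D : (M → ℝ) → M → Prop) : Prop where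
  fin : ∀ K : Set M, IsCompact K → μ K < ⊤
  rad : ∀ u : M → ℝ, LocallyLipschitz u → ∀ᵐ p ∂μ, D u p
  meas : ∀ u v : M → ℝ, Continuous u → Continuous v → Measurable (Γ u v)
  symm : ∀ (u v : M → ℝ) (p : M), Γ u v p = Γ v u p
  cs : ∀ (u v : M → ℝ) (p : M), Γ u v p ^ 2 ≤ Γ u u p * Γ v v p
  congr : ∀ (u v w : M → ℝ) (p : M), u =ᶠ[𝓝 p] v → Γ u w p = Γ v w p
  add : ∀ (u v w : M → ℝ) (p : M), D u p → D v p →
    Γ (fun q => u q + v q) w p = Γ u w p + Γ v w p
  mul : ∀ (u v w : M → ℝ) (p : M), D u p → D v p →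
    Γ (fun q => u q * v q) w p = u p * Γ v w p + v p * Γ u w p
  chain : ∀ (φ : ℝ → ℝ) (u w : M → ℝ) (p : M), D u p → DifferentiableAt ℝ φ (u p) →
    Γ (fun q => φ (u q)) w p = deriv φ (u p) * Γ u w p
  lip : ∀ (C : ℝ) (u : M → ℝ) (p : M), 0 ≤ C → (∀ᶠ q in 𝓝 p, |u q - u p| ≤ C * dist q p) →
    Γ u u p ≤ C ^ 2
  one : ∀ (x p : M), x ≠ p → D (fun q => dist x q) p →
    Γ (fun q => dist x q) (fun q => dist x q) p = 1

section Lip

variable {X : Type*} [PseudoMetricSpace X]

lemma lip_mul {f g : X → ℝ} {a b : ℝ≥0} (hf : LipschitzWith a f) (hg : LipschitzWith b g)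
    (f1 : ∀ x, |f x| ≤ 1) (g1 : ∀ x, |g x| ≤ 1) : LipschitzWith (a + b) (fun x => f x * g x) := by
  refine LipschitzWith.of_dist_le_mul fun x y => ?_
  rw [Real.dist_eq, show f x * g x - f y * g y = (f x - f y) * g x + f y * (g x - g y) by ring]
  calc |(f x - f y) * g x + f y * (g x - g y)|
      ≤ |(f x - f y)| * |g x| + |f y| * |g x - g y| := by
        rw [← abs_mul, ← abs_mul]; exact abs_add_le _ _
    _ ≤ a * dist x y * 1 + 1 * (b * dist x y) := by
        have h1 : |f x - f y| ≤ a * dist x y := by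
          rw [← Real.dist_eq]; exact hf.dist_le_mul x y
        have h2 : |g x - g y| ≤ b * dist x y := by
          rw [← Real.dist_eq]; exact hg.dist_le_mul x y
        gcongr
        · exact g1 x
        · exact f1 y
    _ = ((a + b : ℝ≥0) : ℝ) * dist x y := by push_cast; ring

lemma lip_dist (x : X) : LipschitzWith 1 (fun q => dist x q) := LipschitzWith.dist_right x

lemma lip_cutoff {e : X → ℝ} {c : ℝ≥0} (he : LipschitzWith c e) (δ : ℝ) :
    LipschitzWith (2 * (c * Real.nnabs δ⁻¹)) (fun q => S (1 - e q / δ)) := by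
  refine S_lip.comp (g := fun q => 1 - e q / δ) (LipschitzWith.of_dist_le_mul fun x y => ?_)
  rw [Real.dist_eq, show 1 - e x / δ - (1 - e y / δ) = (e y - e x) * δ⁻¹ by ring, abs_mul]
  have h := he.dist_le_mul y x
  rw [Real.dist_eq, dist_comm] at h
  push_cast
  calc |e y - e x| * |δ⁻¹| ≤ c * dist x y * |δ⁻¹| := by gcongr
    _ = c * |δ⁻¹| * dist x y := by ring

lemma lip_scale {G : ℝ → ℝ} {c : ℝ≥0} (hG : LipschitzWith c G) (x : X) (s : ℝ) :
    LipschitzWith (c * Real.nnabs s⁻¹) (fun q => G (dist x q / s)) := by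
  refine hG.comp (g := fun q => dist x q / s) (LipschitzWith.of_dist_le_mul fun p q => ?_)
  rw [Real.dist_eq, show dist x p / s - dist x q / s = (dist x p - dist x q) * s⁻¹ by ring,
    abs_mul]
  have h := (lip_dist x).dist_le_mul p q
  rw [Real.dist_eq, NNReal.coe_one, one_mul] at h
  rw [Real.coe_nnabs, mul_comm]
  gcongr

/-- the function `w ↦ min (dist p w - dist x w)` -/
lemma exists_min (x : X) {A : Set X} (hA : IsCompact A) (hne : A.Nonempty) :
    ∃ m : X → ℝ, LipschitzWith 1 m ∧ (∀ p, ∃ w ∈ A, m p = dist p w - dist x w) ∧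
      ∀ p, ∀ w ∈ A, m p ≤ dist p w - dist x w := by
  have h : ∀ p : X, ∃ w ∈ A, ∀ v ∈ A, dist p w - dist x w ≤ dist p v - dist x v := by
    intro p
    obtain ⟨w, hw, h⟩ := hA.exists_isMinOn hne
      (f := fun w => dist p w - dist x w) (by fun_prop)
    exact ⟨w, hw, fun v hv => h hv⟩
  choose w hw hmin using h
  refine ⟨fun p => dist p (w p) - dist x (w p), ?_, fun p => ⟨w p, hw p, rfl⟩,
    fun p v hv => hmin p v hv⟩
  refine LipschitzWith.of_le_add fun p q => ?_
  have h1 := hmin p (w q) (hw q)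
  have h2 := dist_triangle p q (w q)
  linarith

/-- the cutoff near geodesics -/
def cut (x : X) (m : X → ℝ) (δ : ℝ) (q : X) : ℝ := S (1 - (dist x q + m q) / δ)

lemma cut_nonneg (x : X) (m : X → ℝ) (δ : ℝ) (q : X) : 0 ≤ cut x m δ q := S_nonneg _

lemma cut_le_one (x : X) (m : X → ℝ) (δ : ℝ) (q : X) : cut x m δ q ≤ 1 := S_le_one _

lemma lip_exc (x : X) {m : X → ℝ} (hm : LipschitzWith 1 m) :
    LipschitzWith 2 (fun q => dist x q + m q) := by
  have := (lip_dist x).add hm
  rwa [one_add_one_eq_two] at this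

lemma lip_cut (x : X) {m : X → ℝ} (hm : LipschitzWith 1 m) (δ : ℝ) :
    ∃ c, LipschitzWith c (cut x m δ) := ⟨_, lip_cutoff (lip_exc x hm) δ⟩

end Lip

section Abs

variable {M : Type} [MetricSpace M] [MeasurableSpace M] [BorelSpace M] [ProperSpace M]
  {μ : Measure M} {Γ : (M → ℝ) → (M → ℝ) → M → ℝ} {D : (M → ℝ) → M → Prop}

omit [BorelSpace M] [ProperSpace M] in
lemma key_ae (hC : Calc μ Γ D) (x : M) {m : M → ℝ} (hm : LipschitzWith 1 m) {δ : ℝ}
    (hδ : 0 < δ) {G G' : ℝ → ℝ} (hG : ∀ t, HasDerivAt G (G' t) t) (hG0 : ∀ t, 0 ≤ G t)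
    {c : ℝ≥0} (hGl : LipschitzWith c G) {s : ℝ} (_hs : 0 < s) :
    ∀ᵐ p ∂μ, Γ (fun q => dist x q ^ 2 / 2) (fun q => cut x m δ q * G (dist x q / s)) p ≤
        dist x p * (cut x m δ p * G' (dist x p / s)) / s ∧
      |Γ (fun q => dist x q ^ 2 / 2) (fun q => cut x m δ q * G (dist x q / s)) p| ≤
        |dist x p * (cut x m δ p * G' (dist x p / s)) / s| +
          dist x p * G (dist x p / s) * (4 / δ) := by
  filter_upwards [hC.rad _ (lip_dist x).locallyLipschitz, hC.rad _ hm.locallyLipschitz,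
    hC.rad _ (lip_exc x hm).locallyLipschitz, hC.rad _ (lip_cutoff (lip_exc x hm) δ).locallyLipschitz,
    hC.rad _ (lip_scale hGl x s).locallyLipschitz] with p h1 h2 h3 h4 h5
  set r : M → ℝ := fun q => dist x q with hr
  have e1 : Γ (fun q => dist x q ^ 2 / 2) (fun q => cut x m δ q * G (dist x q / s)) p =
      r p * Γ (fun q => cut x m δ q * G (dist x q / s)) r p := by
    have hd : HasDerivAt (fun t : ℝ => t ^ 2 / 2) (r p) (r p) := by
      refine ((hasDerivAt_pow 2 (r p)).div_const 2).congr_deriv (by push_cast; ring)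
    rw [hC.chain (fun t => t ^ 2 / 2) r _ p h1 hd.differentiableAt, hd.deriv, hC.symm]
  have e2 : Γ (fun q => cut x m δ q * G (dist x q / s)) r p =
      cut x m δ p * Γ (fun q => G (dist x q / s)) r p + G (r p / s) * Γ (cut x m δ) r p :=
    hC.mul (cut x m δ) (fun q => G (dist x q / s)) r p h4 h5
  have e3 : Γ (fun q => G (dist x q / s)) r p = G' (r p / s) / s * Γ r r p := by
    have hd : HasDerivAt (fun t : ℝ => G (t / s)) (G' (r p / s) / s) (r p) := by
      have := (hG (r p / s)).comp (r p) ((hasDerivAt_id (r p)).div_const s)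
      refine this.congr_deriv (by ring)
    rw [hC.chain (fun t => G (t / s)) r r p h1 hd.differentiableAt, hd.deriv]
  have e4 : Γ (cut x m δ) r p = -(S' (1 - (r p + m p) / δ) / δ) * (Γ r r p + Γ m r p) := by
    have hd : HasDerivAt (fun t : ℝ => S (1 - t / δ)) (-(S' (1 - (r p + m p) / δ) / δ))
        (r p + m p) := by
      have := (hasDerivAt_S (1 - (r p + m p) / δ)).comp (r p + m p)
        (((hasDerivAt_id (r p + m p)).div_const δ).const_sub 1)
      refine this.congr_deriv (by ring)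
    rw [← hC.add r m r p h1 h2,
      ← (show deriv (fun t : ℝ => S (1 - t / δ)) (r p + m p) = _ from hd.deriv)]
    exact hC.chain (fun t => S (1 - t / δ)) (fun q => r q + m q) r p h3 hd.differentiableAt
  rcases eq_or_ne x p with rfl | hxp
  · have h0 : r x = 0 := dist_self x
    have h0' : dist x x = 0 := dist_self x
    rw [e1, h0, h0']
    simp
  · have g1 : Γ r r p = 1 := hC.one x p hxp h1
    have g2 : Γ m m p ≤ 1 := by
      have := hC.lip 1 m p zero_le_one (Eventually.of_forall fun q => by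
        have := hm.dist_le_mul q p
        rwa [Real.dist_eq, NNReal.coe_one] at this)
      simpa using this
    have g3 : Γ m r p ^ 2 ≤ 1 := by
      have := hC.cs m r p
      rw [g1, mul_one] at this
      linarith
    have g4 : |Γ m r p| ≤ 1 := by
      rw [← sq_abs] at g3
      nlinarith [abs_nonneg (Γ m r p)]
    obtain ⟨g5, g6⟩ := abs_le.1 g4
    have hS0 := S'_nonneg (1 - (r p + m p) / δ)
    have hS1 := S'_le (1 - (r p + m p) / δ)
    have hr0 : 0 ≤ r p := dist_nonneg
    have hGn := hG0 (r p / s)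
    have key : Γ (fun q => dist x q ^ 2 / 2) (fun q => cut x m δ q * G (dist x q / s)) p =
        r p * (cut x m δ p * G' (r p / s)) / s -
          r p * G (r p / s) * (S' (1 - (r p + m p) / δ) * (1 + Γ m r p) / δ) := by
      rw [e1, e2, e3, e4, g1]; ring
    have hq : 0 ≤ S' (1 - (r p + m p) / δ) * (1 + Γ m r p) / δ := by
      apply div_nonneg (mul_nonneg hS0 (by linarith)) hδ.le
    have hq2 : S' (1 - (r p + m p) / δ) * (1 + Γ m r p) / δ ≤ 4 / δ := by
      gcongr
      nlinarith
    have hprod : 0 ≤ r p * G (r p / s) := mul_nonneg hr0 hGn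
    rw [key]
    constructor
    · have := mul_nonneg hprod hq
      show _ ≤ r p * (cut x m δ p * G' (r p / s)) / s
      linarith
    · show _ ≤ |r p * (cut x m δ p * G' (r p / s)) / s| + r p * G (r p / s) * (4 / δ)
      calc |r p * (cut x m δ p * G' (r p / s)) / s -
            r p * G (r p / s) * (S' (1 - (r p + m p) / δ) * (1 + Γ m r p) / δ)|
          ≤ |r p * (cut x m δ p * G' (r p / s)) / s| +
            |r p * G (r p / s) * (S' (1 - (r p + m p) / δ) * (1 + Γ m r p) / δ)| :=
            abs_sub _ _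
        _ ≤ _ := by
            rw [abs_of_nonneg (mul_nonneg hprod hq)]
            gcongr

lemma integ (hC : Calc μ Γ D) (x : M) {f : M → ℝ} (hf : Continuous f) {ρ : ℝ}
    (h : ∀ p, f p ≠ 0 → dist x p ≤ ρ) : Integrable f μ := by
  have : IsFiniteMeasureOnCompacts μ := ⟨fun K hK => hC.fin K hK⟩
  refine hf.integrable_of_hasCompactSupport
    (HasCompactSupport.intro (isCompact_closedBall x ρ) fun p hp => ?_)
  by_contra h0
  exact hp (by rw [mem_closedBall, dist_comm]; exact h p h0)

lemma step_ineq (hC : Calc μ Γ D) (x : M) {n : ℕ} {K : ℝ} (hK : 0 ≤ K)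
    (hW : ∀ ζ : M → ℝ, LC ζ → (∀ p, 0 ≤ ζ p) →
      -∫ p, Γ (fun q => dist x q ^ 2 / 2) ζ p ∂μ ≤ ∫ p, (n + K * dist x p ^ 2) * ζ p ∂μ)
    {m : M → ℝ} (hm : LipschitzWith 1 m) {δ : ℝ} (hδ : 0 < δ) {G G' : ℝ → ℝ}
    (hG : ∀ t, HasDerivAt G (G' t) t) (hG0 : ∀ t, 0 ≤ G t) (hG1 : ∀ t, G t ≤ 1)
    (hGc : Continuous G') {c : ℝ≥0} (hGl : LipschitzWith c G) {b : ℝ}
    (hGb : ∀ t, G t ≠ 0 → t < b) (hGb' : ∀ t, G' t ≠ 0 → t < b) {s : ℝ} (hs : 0 < s) :
    ∫ p, cut x m δ p * (G' (dist x p / s) * (-(dist x p) / s)) ∂μ ≤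
      (n + K * (b * s) ^ 2) * ∫ p, cut x m δ p * G (dist x p / s) ∂μ := by
  obtain ⟨c1, hcut⟩ := lip_cut x hm δ
  have hcc : Continuous (cut x m δ) := hcut.continuous
  have hGcont : Continuous G := hGl.continuous
  have hdc : Continuous fun p : M => dist x p := by fun_prop
  have hsupp : ∀ p : M, G (dist x p / s) ≠ 0 → dist x p ≤ b * s := fun p hp => by
    have := hGb _ hp
    rw [div_lt_iff₀ hs] at this
    exact this.le
  have hsupp' : ∀ p : M, G' (dist x p / s) ≠ 0 → dist x p ≤ b * s := fun p hp => by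
    have := hGb' _ hp
    rw [div_lt_iff₀ hs] at this
    exact this.le
  have hLC : LC (fun q => cut x m δ q * G (dist x q / s)) := by
    refine ⟨⟨_, lip_mul hcut (lip_scale hGl x s) (fun q => ?_) (fun q => ?_)⟩,
      HasCompactSupport.intro (isCompact_closedBall x (b * s)) fun p hp => ?_⟩
    · rw [abs_of_nonneg (cut_nonneg _ _ _ _)]; exact cut_le_one _ _ _ _
    · rw [abs_of_nonneg (hG0 _)]; exact hG1 _
    · by_contra h0
      exact hp (by rw [mem_closedBall, dist_comm]; exact hsupp p (right_ne_zero_of_mul h0))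
  have hζ0 : ∀ q : M, 0 ≤ cut x m δ q * G (dist x q / s) := fun q =>
    mul_nonneg (cut_nonneg _ _ _ _) (hG0 _)
  have hWζ := hW _ hLC hζ0
  have hae := key_ae hC x hm hδ hG hG0 hGl hs
  -- integrability
  have i1 : Integrable (fun p => dist x p * (cut x m δ p * G' (dist x p / s)) / s) μ :=
    integ hC x (by fun_prop) fun p hp => hsupp' p fun h0 => hp (by rw [h0]; ring)
  have i2 : Integrable (fun p => |dist x p * (cut x m δ p * G' (dist x p / s)) / s| +
      dist x p * G (dist x p / s) * (4 / δ)) μ :=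
    i1.abs.add (integ hC x (by fun_prop) fun p hp => hsupp p fun h0 => hp (by rw [h0]; ring))
  have i3 : Integrable (Γ (fun q => dist x q ^ 2 / 2)
      (fun q => cut x m δ q * G (dist x q / s))) μ := by
    refine i2.mono' (hC.meas _ _ (by fun_prop) (by fun_prop)).aestronglyMeasurable ?_
    filter_upwards [hae] with p hp
    exact hp.2
  have i4 : Integrable (fun p => cut x m δ p * G (dist x p / s)) μ :=
    integ hC x (by fun_prop) fun p hp => hsupp p (right_ne_zero_of_mul hp)
  have i5 : Integrable (fun p => (n + K * dist x p ^ 2) * (cut x m δ p * G (dist x p / s))) μ :=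
    integ hC x (by fun_prop) fun p hp =>
      hsupp p (right_ne_zero_of_mul (right_ne_zero_of_mul hp))
  have s1 : ∫ p, Γ (fun q => dist x q ^ 2 / 2) (fun q => cut x m δ q * G (dist x q / s)) p ∂μ ≤
      ∫ p, dist x p * (cut x m δ p * G' (dist x p / s)) / s ∂μ :=
    integral_mono_ae i3 i1 (by filter_upwards [hae] with p hp; exact hp.1)
  have s2 : ∫ p, cut x m δ p * (G' (dist x p / s) * (-(dist x p) / s)) ∂μ =
      -∫ p, dist x p * (cut x m δ p * G' (dist x p / s)) / s ∂μ := by
    rw [← integral_neg]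
    refine integral_congr_ae (Eventually.of_forall fun p => ?_)
    simp only
    ring
  have s3 : ∫ p, (n + K * dist x p ^ 2) * (cut x m δ p * G (dist x p / s)) ∂μ ≤
      (n + K * (b * s) ^ 2) * ∫ p, cut x m δ p * G (dist x p / s) ∂μ := by
    rw [← integral_const_mul]
    refine integral_mono i5 (i4.const_mul _) fun p => ?_
    by_cases h0 : G (dist x p / s) = 0
    · simp [h0]
    · have h1 := hsupp p h0
      have h2 : dist x p ^ 2 ≤ (b * s) ^ 2 := by
        have : 0 ≤ dist x p := dist_nonneg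
        gcongr
      exact mul_le_mul_of_nonneg_right (by nlinarith) (hζ0 p)
  linarith

lemma hasDerivAt_int (hC : Calc μ Γ D) (x : M) {m : M → ℝ} (hm : LipschitzWith 1 m) {δ : ℝ}
    {G G' : ℝ → ℝ} (hG : ∀ t, HasDerivAt G (G' t) t) (hGc : Continuous G') {Cg : ℝ}
    (hCg : ∀ t, |G' t| ≤ Cg) {b : ℝ} (hb : 0 < b)
    (hGb : ∀ t, G t ≠ 0 → t < b) (hGb' : ∀ t, G' t ≠ 0 → t < b) {s : ℝ} (hs : 0 < s) :
    HasDerivAt (fun s => ∫ p, cut x m δ p * G (dist x p / s) ∂μ)
      (s⁻¹ * ∫ p, cut x m δ p * (G' (dist x p / s) * (-(dist x p) / s)) ∂μ) s := by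
  obtain ⟨c1, hcut⟩ := lip_cut x hm δ
  have hcc : Continuous (cut x m δ) := hcut.continuous
  have hGcont : Continuous G :=
    (show Differentiable ℝ G from fun t => (hG t).differentiableAt).continuous
  have hdc : Continuous fun p : M => dist x p := by fun_prop
  have hCg0 : 0 ≤ Cg := (abs_nonneg _).trans (hCg 0)
  set B : Set M := closedBall x (b * (2 * s)) with hB
  have hBm : MeasurableSet B := isClosed_closedBall.measurableSet
  have hBf : μ B ≠ ⊤ := (hC.fin _ (isCompact_closedBall _ _)).ne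
  have key := hasDerivAt_integral_of_dominated_loc_of_deriv_le (μ := μ) (𝕜 := ℝ) (E := ℝ)
    (F := fun s p => cut x m δ p * G (dist x p / s))
    (F' := fun s p => cut x m δ p * (G' (dist x p / s) * (-(dist x p) / s ^ 2)))
    (x₀ := s) (s := Ioo (s / 2) (2 * s)) (bound := B.indicator fun _ => Cg * (2 * b / s))
    (Ioo_mem_nhds (by linarith) (by linarith))
    (Eventually.of_forall fun t => Continuous.aestronglyMeasurable (by fun_prop))
    (integ hC x (by fun_prop) (ρ := b * s) fun p hp => by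
      have := hGb _ (right_ne_zero_of_mul hp)
      rw [div_lt_iff₀ hs] at this
      exact this.le)
    (Continuous.aestronglyMeasurable (by fun_prop)) ?_ ?_ ?_
  · refine key.2.congr_deriv ?_
    rw [← integral_const_mul]
    refine integral_congr_ae (Eventually.of_forall fun p => ?_)
    simp only
    rw [sq]
    field_simp
  · refine Eventually.of_forall fun p t ht => ?_
    have ht0 : 0 < t := by linarith [ht.1]
    rw [Real.norm_eq_abs]
    by_cases h0 : G' (dist x p / t) = 0
    · rw [h0]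
      simp only [zero_mul, mul_zero, abs_zero]
      exact indicator_nonneg (fun _ _ => by positivity) p
    · have h1 := hGb' _ h0
      rw [div_lt_iff₀ ht0] at h1
      have hp : p ∈ B := by
        rw [hB, mem_closedBall, dist_comm]
        have := ht.2
        nlinarith
      rw [indicator_of_mem hp, abs_mul, abs_mul, abs_div, abs_neg,
        abs_of_nonneg (cut_nonneg _ _ _ _), abs_of_nonneg (dist_nonneg (x := x) (y := p)),
        abs_of_nonneg (sq_nonneg t)]
      have h2 : dist x p / t ^ 2 ≤ 2 * b / s := by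
        rw [div_le_div_iff₀ (by positivity) hs]
        have h3 : s ≤ 2 * t := by linarith [ht.1]
        calc dist x p * s ≤ (b * t) * (2 * t) := by
              have : 0 ≤ dist x p := dist_nonneg
              gcongr
          _ = 2 * b * t ^ 2 := by ring
      calc cut x m δ p * (|G' (dist x p / t)| * (dist x p / t ^ 2))
          ≤ 1 * (Cg * (2 * b / s)) := by
            gcongr
            · exact cut_le_one _ _ _ _
            · exact hCg _
        _ = _ := one_mul _
  · exact (integrable_indicator_iff hBm).2 (integrableOn_const hBf)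
  · refine Eventually.of_forall fun p t ht => ?_
    have ht0 : t ≠ 0 := by have := ht.1; have : 0 < t := by linarith
                           exact this.ne'
    have h1 : HasDerivAt (fun t : ℝ => dist x p / t) (-(dist x p) / t ^ 2) t := by
      have := (hasDerivAt_inv ht0).const_mul (dist x p)
      refine (this.congr_of_eventuallyEq (Eventually.of_forall fun y => ?_)).congr_deriv ?_
      · simp only [div_eq_mul_inv]
      · rw [neg_div, mul_neg, div_eq_mul_inv]
    exact ((hG _).comp t h1).const_mul (cut x m δ p)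

lemma compare (hC : Calc μ Γ D) (x : M) {n : ℕ} {K : ℝ} (hK : 0 ≤ K)
    (hW : ∀ ζ : M → ℝ, LC ζ → (∀ p, 0 ≤ ζ p) →
      -∫ p, Γ (fun q => dist x q ^ 2 / 2) ζ p ∂μ ≤ ∫ p, (n + K * dist x p ^ 2) * ζ p ∂μ)
    {m : M → ℝ} (hm : LipschitzWith 1 m) {δ : ℝ} (hδ : 0 < δ) {G G' : ℝ → ℝ}
    (hG : ∀ t, HasDerivAt G (G' t) t) (hG0 : ∀ t, 0 ≤ G t) (hG1 : ∀ t, G t ≤ 1)
    (hGc : Continuous G') {c : ℝ≥0} (hGl : LipschitzWith c G) {Cg : ℝ}
    (hCg : ∀ t, |G' t| ≤ Cg) {b : ℝ} (hb : 0 < b)
    (hGb : ∀ t, G t ≠ 0 → t < b) (hGb' : ∀ t, G' t ≠ 0 → t < b) {lam : ℝ} (hl : 0 < lam)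
    (hl1 : lam ≤ 1) :
    ∫ p, cut x m δ p * G (dist x p) ∂μ ≤
      lam⁻¹ ^ n * Real.exp (K * b ^ 2 / 2) * ∫ p, cut x m δ p * G (dist x p / lam) ∂μ := by
  set Φ : ℝ → ℝ := fun s => ∫ p, cut x m δ p * G (dist x p / s) ∂μ with hΦ
  set Ψ : ℝ → ℝ := fun s => ∫ p, cut x m δ p * (G' (dist x p / s) * (-(dist x p) / s)) ∂μ with hΨ
  have hΦ0 : ∀ s, 0 ≤ Φ s := fun s =>
    integral_nonneg fun p => mul_nonneg (cut_nonneg _ _ _ _) (hG0 _)
  have hd : ∀ s, 0 < s → HasDerivAt Φ (s⁻¹ * Ψ s) s := fun s hs =>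
    hasDerivAt_int hC x hm hG hGc hCg hb hGb hGb' hs
  have hi : ∀ s, 0 < s → Ψ s ≤ (n + K * (b * s) ^ 2) * Φ s := fun s hs =>
    step_ineq hC x hK hW hm hδ hG hG0 hG1 hGc hGl hGb hGb' hs
  set W : ℝ → ℝ := fun s => Real.exp (-(n * Real.log s) - K * b ^ 2 * s ^ 2 / 2) with hWdef
  have hWd : ∀ s, 0 < s → HasDerivAt W (W s * (-(n / s) - K * b ^ 2 * s)) s := fun s hs => by
    have h1 : HasDerivAt (fun s : ℝ => -(n * Real.log s)) (-(n * s⁻¹)) s :=
      ((Real.hasDerivAt_log hs.ne').const_mul (n : ℝ)).neg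
    have h2 : HasDerivAt (fun s : ℝ => K * b ^ 2 * s ^ 2 / 2) (K * b ^ 2 * s) s :=
      (((hasDerivAt_pow 2 s).const_mul (K * b ^ 2)).div_const 2).congr_deriv
        (by push_cast; ring)
    have h3 : HasDerivAt W (W s * (-(n * s⁻¹) - K * b ^ 2 * s)) s := (h1.sub h2).exp
    exact h3.congr_deriv (by rw [div_eq_mul_inv])
  have hanti : AntitoneOn (fun s => W s * Φ s) (Icc lam 1) := by
    refine antitoneOn_of_deriv_nonpos (convex_Icc _ _) ?_ ?_ ?_
    · intro s hs
      have hs0 : 0 < s := hl.trans_le hs.1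
      exact ((hWd s hs0).mul (hd s hs0)).continuousAt.continuousWithinAt
    · intro s hs
      rw [interior_Icc] at hs
      have hs0 : 0 < s := hl.trans hs.1
      exact ((hWd s hs0).mul (hd s hs0)).differentiableAt.differentiableWithinAt
    · intro s hs
      rw [interior_Icc] at hs
      have hs0 : 0 < s := hl.trans hs.1
      have h0 : deriv (fun s => W s * Φ s) s =
          W s * (-(n / s) - K * b ^ 2 * s) * Φ s + W s * (s⁻¹ * Ψ s) :=
        ((hWd s hs0).mul (hd s hs0)).deriv
      rw [h0]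
      have h1 := hi s hs0
      have h2 : W s * (-(n / s) - K * b ^ 2 * s) * Φ s + W s * (s⁻¹ * Ψ s) =
          W s * s⁻¹ * (Ψ s - (n + K * (b * s) ^ 2) * Φ s) := by
        field_simp
        ring
      rw [h2]
      refine mul_nonpos_of_nonneg_of_nonpos ?_ (by linarith)
      have : 0 < W s := Real.exp_pos _
      positivity
  have h := hanti (left_mem_Icc.2 hl1) (right_mem_Icc.2 hl1) hl1
  simp only at h
  have hW1 : W 1 = Real.exp (-(K * b ^ 2 / 2)) := by
    simp only [hWdef, Real.log_one]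
    congr 1
    ring
  have hWl : W lam ≤ lam⁻¹ ^ n := by
    have e1 : lam⁻¹ ^ n = Real.exp (-(n * Real.log lam)) := by
      rw [← Real.exp_log (inv_pos.2 hl), ← Real.exp_nat_mul, Real.log_inv]
      congr 1
      ring
    rw [e1]
    apply Real.exp_le_exp.2
    have : 0 ≤ K * b ^ 2 * lam ^ 2 / 2 := by positivity
    linarith
  have hΦ1 : Φ 1 = ∫ p, cut x m δ p * G (dist x p) ∂μ := by simp [hΦ]
  rw [← hΦ1]
  have e2 : Φ 1 = Real.exp (K * b ^ 2 / 2) * (W 1 * Φ 1) := by
    rw [hW1, ← mul_assoc, ← Real.exp_add]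
    simp
  rw [e2]
  calc Real.exp (K * b ^ 2 / 2) * (W 1 * Φ 1) ≤ Real.exp (K * b ^ 2 / 2) * (W lam * Φ lam) := by
        gcongr
    _ ≤ Real.exp (K * b ^ 2 / 2) * (lam⁻¹ ^ n * Φ lam) := by
        gcongr
        exact hΦ0 lam
    _ = _ := by ring

/-- points near the `lam`-fraction of `A` -/
def Tset (x : M) (A : Set M) (lam δ : ℝ) : Set M :=
  {p | ∃ w ∈ A, dist x p + dist p w ≤ dist x w + δ ∧ |dist x p - lam * dist x w| ≤ 2 * δ}

omit [MeasurableSpace M] [BorelSpace M] in
lemma isCompact_Tset (x : M) {A : Set M} (hA : IsCompact A) (lam δ : ℝ) :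
    IsCompact (Tset x A lam δ) := by
  obtain ⟨R, hR⟩ := hA.isBounded.subset_closedBall x
  have hc : IsCompact ((closedBall x (R + δ) ×ˢ A) ∩
      {q : M × M | dist x q.1 + dist q.1 q.2 ≤ dist x q.2 + δ ∧
        |dist x q.1 - lam * dist x q.2| ≤ 2 * δ}) := by
    refine ((isCompact_closedBall x (R + δ)).prod hA).inter_right ?_
    exact (isClosed_le (f := fun q : M × M => dist x q.1 + dist q.1 q.2)
      (g := fun q : M × M => dist x q.2 + δ) (by fun_prop) (by fun_prop)).inter
      (isClosed_le (f := fun q : M × M => |dist x q.1 - lam * dist x q.2|)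
      (g := fun _ : M × M => 2 * δ) (by fun_prop) (by fun_prop))
  have := hc.image continuous_fst
  convert this using 1
  ext p
  simp only [Tset, mem_ofPred_eq, mem_image, mem_inter_iff, mem_prod, mem_closedBall, Prod.exists,
    exists_and_right, exists_eq_right]
  constructor
  · rintro ⟨w, hw, h1, h2⟩
    refine ⟨w, ⟨?_, hw⟩, h1, h2⟩
    have h3 := hR hw
    rw [mem_closedBall, dist_comm] at h3
    rw [dist_comm]
    have : 0 ≤ dist p w := dist_nonneg
    linarith
  · rintro ⟨w, ⟨_, hw⟩, h1, h2⟩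
    exact ⟨w, hw, h1, h2⟩

lemma slab (hC : Calc μ Γ D) (x : M) {n : ℕ} {K : ℝ} (hK : 0 ≤ K)
    (hW : ∀ ζ : M → ℝ, LC ζ → (∀ p, 0 ≤ ζ p) →
      -∫ p, Γ (fun q => dist x q ^ 2 / 2) ζ p ∂μ ≤ ∫ p, (n + K * dist x p ^ 2) * ζ p ∂μ)
    {A : Set M} (hA : IsCompact A) {lam : ℝ} (hl : 0 < lam) (hl1 : lam ≤ 1) {δ : ℝ} (hδ : 0 < δ)
    (i : ℕ) {b : ℝ} (hb : (i + 1) * δ ≤ b) :
    ∫ p in A, hat δ i (dist x p) ∂μ ≤ lam⁻¹ ^ n * Real.exp (K * b ^ 2 / 2) *
      ∫ p in Tset x A lam δ, hat δ i (dist x p / lam) ∂μ := by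
  have hb0 : 0 < b := lt_of_lt_of_le (by positivity) hb
  have hTm : MeasurableSet (Tset x A lam δ) := (isCompact_Tset x hA lam δ).isClosed.measurableSet
  have hAm : MeasurableSet A := hA.isClosed.measurableSet
  have hdc : Continuous fun p : M => dist x p := by fun_prop
  have hhc := continuous_hat δ i
  have hsb : ∀ t, |t - i * δ| < δ → t < b := fun t ht => by
    have := (abs_lt.1 ht).2
    linarith
  have i1 : Integrable (fun p => hat δ i (dist x p)) μ :=
    integ hC x (by fun_prop) (ρ := b) fun p hp => (hsb _ (hat_support hδ i hp)).le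
  have i2 : Integrable (fun p => hat δ i (dist x p / lam)) μ :=
    integ hC x (by fun_prop) (ρ := b * lam) fun p hp => by
      have := hsb _ (hat_support hδ i hp)
      rw [div_lt_iff₀ hl] at this
      exact this.le
  by_cases hne : (A ∩ {w | |dist x w - i * δ| ≤ δ}).Nonempty
  · have hAi : IsCompact (A ∩ {w | |dist x w - i * δ| ≤ δ}) :=
      hA.inter_right (isClosed_le (by fun_prop) (by fun_prop))
    obtain ⟨m, hm, hm1, hm2⟩ := exists_min x hAi hne
    obtain ⟨c1, hcut⟩ := lip_cut x hm δ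
    have hcc : Continuous (cut x m δ) := hcut.continuous
    have i3 : Integrable (fun p => cut x m δ p * hat δ i (dist x p)) μ :=
      integ hC x (by fun_prop) (ρ := b) fun p hp =>
        (hsb _ (hat_support hδ i (right_ne_zero_of_mul hp))).le
    have i4 : Integrable (fun p => cut x m δ p * hat δ i (dist x p / lam)) μ :=
      integ hC x (by fun_prop) (ρ := b * lam) fun p hp => by
        have := hsb _ (hat_support hδ i (right_ne_zero_of_mul hp))
        rw [div_lt_iff₀ hl] at this
        exact this.le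
    have h1 : ∫ p in A, hat δ i (dist x p) ∂μ ≤ ∫ p, cut x m δ p * hat δ i (dist x p) ∂μ := by
      rw [← integral_indicator hAm]
      refine integral_mono (i1.indicator hAm) i3 fun p => ?_
      by_cases hp : p ∈ A
      · rw [indicator_of_mem hp]
        by_cases h0 : hat δ i (dist x p) = 0
        · simp [h0]
        · have h2 := hm2 p p ⟨hp, (hat_support hδ i h0).le⟩
          rw [dist_self, zero_sub] at h2
          have h3 : cut x m δ p = 1 := by
            refine S_of_one_le ?_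
            have : (dist x p + m p) / δ ≤ 0 := div_nonpos_of_nonpos_of_nonneg (by linarith) hδ.le
            linarith
          rw [h3, one_mul]
      · rw [indicator_of_notMem hp]
        exact mul_nonneg (cut_nonneg _ _ _ _) (hat_nonneg _ _ _)
    have h2 := compare hC x hK hW hm hδ (hasDerivAt_hat δ i) (hat_nonneg δ i) (hat_le_one δ i)
      (continuous_hat' δ i) (lipschitz_hat hδ i) (abs_hat'_le hδ i) hb0
      (fun t ht => hsb _ (hat_support hδ i ht)) (fun t ht => hsb _ (hat'_support hδ i ht)) hl hl1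
    have h3 : ∫ p, cut x m δ p * hat δ i (dist x p / lam) ∂μ ≤
        ∫ p in Tset x A lam δ, hat δ i (dist x p / lam) ∂μ := by
      rw [← integral_indicator hTm]
      refine integral_mono i4 (i2.indicator hTm) fun p => ?_
      by_cases hp : p ∈ Tset x A lam δ
      · rw [indicator_of_mem hp]
        exact mul_le_of_le_one_left (hat_nonneg _ _ _) (cut_le_one _ _ _ _)
      · rw [indicator_of_notMem hp]
        refine le_of_eq ?_
        by_contra h0
        have h4 := left_ne_zero_of_mul h0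
        have h5 := hat_support hδ i (right_ne_zero_of_mul h0)
        have h6 : (dist x p + m p) / δ < 1 := by
          by_contra hc
          push Not at hc
          exact h4 (S_of_nonpos (by linarith))
        rw [div_lt_one hδ] at h6
        obtain ⟨w, hw, hmw⟩ := hm1 p
        refine hp ⟨w, hw.1, by linarith, ?_⟩
        have h7 : |dist x w - i * δ| ≤ δ := hw.2
        have h8 : dist x p - lam * dist x w =
            lam * (dist x p / lam - i * δ) - lam * (dist x w - i * δ) := by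
          field_simp
          ring
        rw [h8]
        calc |lam * (dist x p / lam - i * δ) - lam * (dist x w - i * δ)|
            ≤ |lam * (dist x p / lam - i * δ)| + |lam * (dist x w - i * δ)| := abs_sub _ _
          _ ≤ 1 * δ + 1 * δ := by
              rw [abs_mul, abs_mul, abs_of_pos hl]
              gcongr
          _ = 2 * δ := by ring
    calc _ ≤ _ := h1
      _ ≤ _ := h2
      _ ≤ _ := by gcongr
  · have h0 : ∫ p in A, hat δ i (dist x p) ∂μ = 0 := by
      refine setIntegral_eq_zero_of_forall_eq_zero fun p hp => ?_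
      by_contra h0
      exact hne ⟨p, hp, (hat_support hδ i h0).le⟩
    rw [h0]
    have : 0 ≤ ∫ p in Tset x A lam δ, hat δ i (dist x p / lam) ∂μ :=
      integral_nonneg fun p => hat_nonneg _ _ _
    positivity

lemma approx (hC : Calc μ Γ D) (x : M) {n : ℕ} {K : ℝ} (hK : 0 ≤ K)
    (hW : ∀ ζ : M → ℝ, LC ζ → (∀ p, 0 ≤ ζ p) →
      -∫ p, Γ (fun q => dist x q ^ 2 / 2) ζ p ∂μ ≤ ∫ p, (n + K * dist x p ^ 2) * ζ p ∂μ)
    {A : Set M} (hA : IsCompact A) {lam : ℝ} (hl : 0 < lam) (hl1 : lam ≤ 1) {R : ℝ} (hR : 0 < R)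
    (hAR : A ⊆ closedBall x R) (k : ℕ) :
    μ.real A ≤ lam⁻¹ ^ n * Real.exp (K * R ^ 2) * μ.real (Tset x A lam (R / (k + 5))) := by
  set δ : ℝ := R / (k + 5) with hδd
  have hδ : 0 < δ := by positivity
  set N : ℕ := k + 6 with hN
  have hTm : MeasurableSet (Tset x A lam δ) := (isCompact_Tset x hA lam δ).isClosed.measurableSet
  have hAm : MeasurableSet A := hA.isClosed.measurableSet
  have hTf : μ (Tset x A lam δ) ≠ ⊤ := (hC.fin _ (isCompact_Tset x hA lam δ)).ne
  have hAf : μ A ≠ ⊤ := (hC.fin _ hA).ne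
  have hdc : Continuous fun p : M => dist x p := by fun_prop
  have hint : ∀ (i : ℕ) (s : ℝ), 0 < s → Integrable (fun p => hat δ i (dist x p / s)) μ := by
    intro i s hs
    have hhc := continuous_hat δ i
    refine integ hC x (by fun_prop) (ρ := (i + 1) * δ * s) fun p hp => ?_
    have := (abs_lt.1 (hat_support hδ i hp)).2
    rw [← div_le_iff₀ hs]
    linarith
  have hbig : (N : ℝ) * δ ≤ 6 / 5 * R := by
    rw [hδd, hN]
    push_cast
    rw [mul_div_assoc', div_le_iff₀ (by positivity)]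
    nlinarith [(Nat.cast_nonneg k : (0 : ℝ) ≤ k)]
  have h1 : ∑ i ∈ Finset.range N, ∫ p in A, hat δ i (dist x p) ∂μ = μ.real A := by
    have hint1 : ∀ i : ℕ, Integrable (fun p => hat δ i (dist x p)) μ := fun i => by
      simpa using hint i 1 one_pos
    rw [← integral_finsetSum _ fun i _ => (hint1 i).integrableOn]
    have : ∀ p ∈ A, ∑ i ∈ Finset.range N, hat δ i (dist x p) = 1 := fun p hp => by
      refine sum_hat_eq hδ dist_nonneg ?_
      have h2 := hAR hp
      rw [mem_closedBall, dist_comm] at h2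
      refine h2.trans (le_of_eq ?_)
      rw [hδd, hN]
      push_cast
      field_simp
      ring
    rw [setIntegral_congr_fun hAm this]
    simp
  have h2 : ∑ i ∈ Finset.range N, ∫ p in Tset x A lam δ, hat δ i (dist x p / lam) ∂μ ≤
      μ.real (Tset x A lam δ) := by
    rw [← integral_finsetSum _ fun i _ => (hint i lam hl).integrableOn]
    have h3 : ∫ p in Tset x A lam δ, ∑ i ∈ Finset.range N, hat δ i (dist x p / lam) ∂μ ≤
        ∫ p in Tset x A lam δ, (1 : ℝ) ∂μ :=
      setIntegral_mono (integrable_finsetSum _ fun i _ => (hint i lam hl).integrableOn)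
        (integrableOn_const hTf) fun p => sum_hat_le _ _ _
    simpa using h3
  calc μ.real A = ∑ i ∈ Finset.range N, ∫ p in A, hat δ i (dist x p) ∂μ := h1.symm
    _ ≤ ∑ i ∈ Finset.range N, lam⁻¹ ^ n * Real.exp (K * (N * δ) ^ 2 / 2) *
        ∫ p in Tset x A lam δ, hat δ i (dist x p / lam) ∂μ := by
        refine Finset.sum_le_sum fun i hi => slab hC x hK hW hA hl hl1 hδ i ?_
        have : (i : ℝ) + 1 ≤ N := by exact_mod_cast Finset.mem_range.1 hi
        gcongr
    _ = lam⁻¹ ^ n * Real.exp (K * (N * δ) ^ 2 / 2) *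
        ∑ i ∈ Finset.range N, ∫ p in Tset x A lam δ, hat δ i (dist x p / lam) ∂μ := by
        rw [Finset.mul_sum]
    _ ≤ lam⁻¹ ^ n * Real.exp (K * R ^ 2) * μ.real (Tset x A lam δ) := by
        have h3 : K * (N * δ) ^ 2 / 2 ≤ K * R ^ 2 := by
          have : ((N : ℝ) * δ) ^ 2 ≤ (6 / 5 * R) ^ 2 := by gcongr
          nlinarith [mul_le_mul_of_nonneg_left this hK, mul_nonneg hK (sq_nonneg R)]
        have h4 : 0 ≤ ∑ i ∈ Finset.range N,
            ∫ p in Tset x A lam δ, hat δ i (dist x p / lam) ∂μ :=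
          Finset.sum_nonneg fun i _ => integral_nonneg fun p => hat_nonneg _ _ _
        gcongr

/-- measure contraction in an abstract calculus -/
theorem mcp_abs (hC : Calc μ Γ D) (x : M) {n : ℕ} {K : ℝ} (hK : 0 ≤ K)
    (hW : ∀ ζ : M → ℝ, LC ζ → (∀ p, 0 ≤ ζ p) →
      -∫ p, Γ (fun q => dist x q ^ 2 / 2) ζ p ∂μ ≤ ∫ p, (n + K * dist x p ^ 2) * ζ p ∂μ)
    {A : Set M} (hA : IsCompact A) {lam : ℝ} (hl : 0 < lam) (hl1 : lam ≤ 1) {R : ℝ} (hR : 0 < R)
    (hAR : A ⊆ closedBall x R) :
    μ.real A ≤ lam⁻¹ ^ n * Real.exp (K * R ^ 2) *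
      μ.real {w | ∃ z ∈ A, dist x w = lam * dist x z ∧ dist w z = (1 - lam) * dist x z} := by
  set T : ℕ → Set M := fun k => Tset x A lam (R / (k + 5)) with hT
  set T₀ : Set M :=
    {w | ∃ z ∈ A, dist x w = lam * dist x z ∧ dist w z = (1 - lam) * dist x z} with hT₀
  have hTc : ∀ k, IsCompact (T k) := fun k => isCompact_Tset x hA lam _
  have hanti : Antitone T := by
    intro k l hkl p hp
    obtain ⟨w, hw, h1, h2⟩ := hp
    have h3 : R / ((l : ℝ) + 5) ≤ R / ((k : ℝ) + 5) := by
      have : (k : ℝ) ≤ l := by exact_mod_cast hkl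
      gcongr
    exact ⟨w, hw, by linarith, by linarith⟩
  have hsub : ⋂ k, T k ⊆ T₀ := by
    intro p hp
    rw [mem_iInter] at hp
    obtain ⟨w₁, hw₁, -⟩ := hp 0
    obtain ⟨w, hw, hmin⟩ := hA.exists_isMinOn ⟨w₁, hw₁⟩
      (f := fun w => max (dist x p + dist p w - dist x w) (|dist x p - lam * dist x w| / 2))
      (by fun_prop)
    have hF : max (dist x p + dist p w - dist x w) (|dist x p - lam * dist x w| / 2) ≤ 0 := by
      by_contra hc
      push Not at hc
      set F := max (dist x p + dist p w - dist x w) (|dist x p - lam * dist x w| / 2) with hFd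
      obtain ⟨k, hk⟩ := exists_nat_gt (R / F)
      obtain ⟨v, hv, h1, h2⟩ := hp k
      have h3 : F ≤ max (dist x p + dist p v - dist x v) (|dist x p - lam * dist x v| / 2) :=
        hmin hv
      have h4 : max (dist x p + dist p v - dist x v) (|dist x p - lam * dist x v| / 2) ≤
          R / (k + 5) := max_le (by linarith) (by linarith)
      have h5 := h3.trans h4
      rw [le_div_iff₀ (by positivity)] at h5
      rw [div_lt_iff₀ hc] at hk
      nlinarith
    have h1 := (le_max_left _ _).trans hF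
    have h2 := (le_max_right _ _).trans hF
    have h3 : |dist x p - lam * dist x w| = 0 := le_antisymm (by linarith) (abs_nonneg _)
    rw [abs_eq_zero] at h3
    have h4 := dist_triangle x p w
    exact ⟨w, hw, by linarith, by linarith⟩
  have hsub2 : T₀ ⊆ closedBall x R := by
    rintro w ⟨z, hz, h1, -⟩
    have h2 := hAR hz
    rw [mem_closedBall, dist_comm] at h2 ⊢
    rw [h1]
    exact (mul_le_of_le_one_left dist_nonneg hl1).trans h2
  have hf0 : μ (⋂ k, T k) ≠ ⊤ :=
    ((measure_mono (iInter_subset T 0)).trans_lt (hC.fin _ (hTc 0))).ne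
  have hlim : Tendsto (fun k => μ.real (T k)) atTop (𝓝 (μ.real (⋂ k, T k))) :=
    (ENNReal.tendsto_toReal hf0).comp (tendsto_measure_iInter_atTop
      (fun k => (hTc k).isClosed.measurableSet.nullMeasurableSet) hanti
      ⟨0, (hC.fin _ (hTc 0)).ne⟩)
  have hle := ge_of_tendsto' (hlim.const_mul (lam⁻¹ ^ n * Real.exp (K * R ^ 2)))
    fun k => approx hC x hK hW hA hl hl1 hR hAR k
  refine hle.trans ?_
  have hT₀f : μ T₀ ≠ ⊤ := ((measure_mono hsub2).trans_lt (hC.fin _ (isCompact_closedBall _ _))).ne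
  have := measureReal_mono hsub hT₀f
  gcongr

end Abs

end Vale.Agent.P210.R2.H168
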